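import Crest.Agent.R108.Split

/-! The main recursion: a minimal invariant set of positive diameter contradicts reflexivity. -/

namespace Crest.Agent.R108

open Filter Topology Set

variable {X : Type*} [NormedAddCommGroup X] [NormedSpace ℝ X]

namespace Ctx

variable (c : Ctx X)

/-- State of the recursion. -/
structure State where
  ν : c.Node
  φ : StrongDual ℝ X
  w : X
  κ : ℝ
  w_mem : w ∈ c.K
  κ_pos : 0 < κ

variable {c}

lemma step (hX : Function.Surjective (NormedSpace.inclusionInDoubleDual ℝ X)) (j : ℕ)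
    (s : c.State) : ∃ (s' : c.State) (g : StrongDual ℝ X), ‖g‖ ≤ 1 ∧ s'.φ = s.φ + g ∧
      s'.φ s'.ν.h + c.d ≤ s.φ s.ν.h + c.d / 4 * (1 / 2) ^ j ∧
      (∀ v ∈ c.K, -(s.κ * (c.d / 4)) ≤ g (v - s.w)) ∧
      ∀ f : StrongDual ℝ X, (∀ v ∈ c.K, -(s'.κ * (c.d / 4)) ≤ f (v - s'.w)) →
        (∀ v ∈ c.K, -(s.κ * (c.d / 4)) ≤ f (v - s.w)) ∧
        (∀ v ∈ c.K, -(s'.ν.t * (c.d / 4)) ≤ f (v - s'.ν.q')) := by
  have hd := c.d_pos
  have hκ := s.κ_pos
  obtain ⟨ν', g, hg, h1, h2, h3⟩ := s.ν.split hX s.φ s.w_mem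
    (ε := Min.min (c.d / 8 * (1 / 2) ^ j) (s.κ * (c.d / 4))) (lt_min (by positivity) (by positivity))
  have e1 := min_le_left (c.d / 8 * (1 / 2) ^ j) (s.κ * (c.d / 4))
  have e2 := min_le_right (c.d / 8 * (1 / 2) ^ j) (s.κ * (c.d / 4))
  have ht := ν'.fam.t_pos
  refine ⟨⟨ν', s.φ + g, (1 / 2 : ℝ) • s.w + (1 / 2 : ℝ) • ν'.q', Min.min s.κ ν'.t / 2,
    c.inv.cv s.w_mem ν'.q'_mem (by norm_num) (by norm_num) (by norm_num),
    half_pos (lt_min hκ ht)⟩, g, hg, rfl, ?_, fun v hv => ?_, fun f hf => ⟨fun v hv => ?_,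
    fun v hv => ?_⟩⟩
  · simp only [add_apply]
    linarith
  · linarith [h3 v hv]
  · have h4 := hf _ (c.inv.cv hv ν'.q'_mem (a := 1 / 2) (b := 1 / 2) (by norm_num) (by norm_num)
      (by norm_num))
    simp only [map_sub, map_add, map_smul, smul_eq_mul] at h4 ⊢
    have h5 : Min.min s.κ ν'.t * (c.d / 4) ≤ s.κ * (c.d / 4) :=
      mul_le_mul_of_nonneg_right (min_le_left _ _) (by positivity)
    linarith
  · have h4 := hf _ (c.inv.cv s.w_mem hv (a := 1 / 2) (b := 1 / 2) (by norm_num) (by norm_num)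
      (by norm_num))
    simp only [map_sub, map_add, map_smul, smul_eq_mul] at h4 ⊢
    have h5 : Min.min s.κ ν'.t * (c.d / 4) ≤ ν'.t * (c.d / 4) :=
      mul_le_mul_of_nonneg_right (min_le_right _ _) (by positivity)
    linarith

theorem false_of_ctx (hX : Function.Surjective (NormedSpace.inclusionInDoubleDual ℝ X))
    (c : Ctx X) : False := by
  have hd := c.d_pos
  choose nx G hG1 hG2 hG3 hG4 hG5 using step (c := c) hX
  obtain ⟨ν₀⟩ := c.exists_node
  let s : ℕ → c.State := fun j =>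
    Nat.rec ⟨ν₀, 0, c.b, 1, c.b_mem, one_pos⟩ (fun j s => nx j s) j
  have hs : ∀ j, s (j + 1) = nx j (s j) := fun j => rfl
  let g : ℕ → StrongDual ℝ X := fun j => G j (s j)
  have hφ : ∀ j, (s j).φ = ∑ i ∈ Finset.range j, g i := by
    intro j
    induction j with
    | zero => simp [s]
    | succ j ih => rw [Finset.sum_range_succ, ← ih, hs, hG2]
  have hpot : ∀ j : ℕ, (s j).φ (s j).ν.h + j * c.d
      ≤ c.d / 4 * ∑ i ∈ Finset.range j, (1 / 2 : ℝ) ^ i := by
    intro j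
    induction j with
    | zero => simp [s]
    | succ j ih =>
      have := hG3 j (s j)
      rw [← hs] at this
      rw [Finset.sum_range_succ]
      push_cast
      linarith
  have hgl : ∀ i (z : X), ‖z‖ ≤ c.d → 0 ≤ g i z + c.d := by
    intro i z hz
    have h1 : |g i z| ≤ c.d := ((g i).le_opNorm z).trans
      ((mul_le_of_le_one_left (norm_nonneg _) (hG1 i (s i))).trans hz)
    linarith [(abs_le.1 h1).1]
  have hinv : ∀ (f : StrongDual ℝ X) (l j : ℕ), l < j →
      (∀ v ∈ c.K, -((s j).κ * (c.d / 4)) ≤ f (v - (s j).w)) →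
      ∀ v ∈ c.K, -((s (l + 1)).ν.t * (c.d / 4)) ≤ f (v - (s (l + 1)).ν.q') := by
    intro f l j hlj
    induction j, hlj using Nat.le_induction with
    | base => exact fun h => (hG5 l (s l) f h).2
    | succ j _ ih => exact fun h => ih (hG5 j (s j) f h).1
  refine double_limit hX (fun l => (s (l + 1)).ν.h) g c.d 1 (fun l => Node.norm_h _)
    (fun i => hG1 i (s i)) (show -(c.d / 2) < -(c.d / 4) by linarith) (fun i l hil => ?_)
    (fun i l hli => ?_)
  · have h1 := hpot (l + 1)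
    have h2 := sum_geometric_two_le (l + 1)
    have h3 : (s (l + 1)).φ (s (l + 1)).ν.h + ((l + 1 : ℕ) : ℝ) * c.d
        = ∑ i ∈ Finset.range (l + 1), (g i (s (l + 1)).ν.h + c.d) := by
      rw [hφ (l + 1), Finset.sum_add_distrib, Finset.sum_const, Finset.card_range, nsmul_eq_mul,
        ContinuousLinearMap.sum_apply]
    have h4 := Finset.single_le_sum (f := fun i => g i (s (l + 1)).ν.h + c.d)
      (s := Finset.range (l + 1)) (fun i _ => hgl i _ (Node.norm_h _))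
      (Finset.mem_range.2 (Nat.lt_succ_of_le hil))
    have h5 : c.d / 4 * ∑ i ∈ Finset.range (l + 1), (1 / 2 : ℝ) ^ i ≤ c.d / 4 * 2 :=
      mul_le_mul_of_nonneg_left h2 (by positivity)
    linarith
  · have h1 := hinv (g i) l i hli (hG4 i (s i)) _ (s (l + 1)).ν.q_mem
    rw [Node.apply_h, le_div_iff₀ (s (l + 1)).ν.fam.t_pos]
    linarith

end Ctx

theorem fixed_point [CompleteSpace X]
    (hX : Function.Surjective (NormedSpace.inclusionInDoubleDual ℝ X))
    (C : Set X) (hC₁ : C.Nonempty) (hC₂ : IsClosed C) (hC₃ : Bornology.IsBounded C)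
    (hC₄ : Convex ℝ C) (F : X → X) (hF₁ : Set.MapsTo F C C)
    (hF₂ : ∀ a ∈ C, ∀ b ∈ C, ‖F a - F b‖ ≤ ‖a - b‖) : ∃ x ∈ C, F x = x := by
  by_contra H
  obtain ⟨c⟩ := exists_ctx hX C hC₁ hC₂ hC₃ hC₄ F hF₁ hF₂ H
  exact Ctx.false_of_ctx hX c

end Crest.Agent.R108
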