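import Crest.Agent.R108.Weak

/-! Minimal invariant sets, approximate fixed point sequences and the Goebel–Karlovitz lemma. -/

namespace Crest.Agent.R108

open Filter Topology Set

variable {X : Type*} [NormedAddCommGroup X] [NormedSpace ℝ X]

/-- Nonempty closed convex invariant sets. -/
structure Inv (T : X → X) (S : Set X) : Prop where
  ne : S.Nonempty
  cl : IsClosed S
  cv : Convex ℝ S
  mt : MapsTo T S S

lemma exists_minimal (hX : Function.Surjective (NormedSpace.inclusionInDoubleDual ℝ X))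
    (T : X → X) (C : Set X) (hC : Inv T C) (R : ℝ) (hR : ∀ x ∈ C, ‖x‖ ≤ R) :
    ∃ K, K ⊆ C ∧ Inv T K ∧ ∀ S, Inv T S → S ⊆ K → K ⊆ S := by
  classical
  obtain ⟨K, hK, hmin⟩ := zorn_superset_nonempty {S | Inv T S ∧ S ⊆ C} (fun c hc hch hne => by
    have hR0 : 0 ≤ R := by
      obtain ⟨x, hx⟩ := hC.ne
      exact (norm_nonneg _).trans (hR x hx)
    have : Nonempty c := hne.to_subtype
    have hnb : NeBot (⨅ s : c, 𝓟 (s : Set X)) := by
      refine iInf_neBot_of_directed' (fun s t => ?_) (fun s => ?_)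
      · rcases hch.total s.2 t.2 with h | h
        · exact ⟨s, le_rfl, principal_mono.2 h⟩
        · exact ⟨t, principal_mono.2 h, le_rfl⟩
      · exact principal_neBot_iff.2 (hc s.2).1.ne
    let U := Ultrafilter.of (⨅ s : c, 𝓟 (s : Set X))
    obtain ⟨x, hx⟩ := exists_wlim hX U (fun y => if ‖y‖ ≤ R then y else 0) R (fun y => by
      split_ifs with h
      · exact h
      · simpa using hR0)
    have hxm : ∀ s ∈ c, x ∈ s := by
      intro s hs
      refine hx.mem (hc hs).1.cl (hc hs).1.cv ?_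
      have : s ∈ (U : Filter X) :=
        Ultrafilter.of_le _ (mem_iInf_of_mem ⟨s, hs⟩ (mem_principal_self _))
      filter_upwards [this] with y hy
      rw [if_pos (hR y ((hc hs).2 hy))]
      exact hy
    refine ⟨⋂₀ c, ⟨⟨⟨x, hxm⟩, isClosed_sInter fun s hs => (hc hs).1.cl,
      convex_sInter fun s hs => (hc hs).1.cv, fun y hy s hs => (hc hs).1.mt (hy s hs)⟩, ?_⟩,
      fun s hs => sInter_subset_of_mem hs⟩
    obtain ⟨s, hs⟩ := hne
    exact (sInter_subset_of_mem hs).trans (hc hs).2) C ⟨hC, Subset.rfl⟩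
  exact ⟨K, hK, hmin.1.1, fun S hS hSK => hmin.2 ⟨hS, hSK.trans hK⟩ hSK⟩

lemma exists_approx_fixed [CompleteSpace X] (T : X → X) (K : Set X) (hK : Inv T K)
    (hT : ∀ u ∈ K, ∀ v ∈ K, ‖T u - T v‖ ≤ ‖u - v‖) (d : ℝ)
    (hd : ∀ u ∈ K, ∀ v ∈ K, ‖u - v‖ ≤ d) (s : ℝ) (hs0 : 0 < s) (hs1 : s ≤ 1) :
    ∃ y ∈ K, ‖T y - y‖ ≤ s * d := by
  obtain ⟨x₀, hx₀⟩ := hK.ne
  let f : X → X := fun x => s • x₀ + (1 - s) • T x
  have hf : MapsTo f K K := fun x hx => hK.cv hx₀ (hK.mt hx) hs0.le (by linarith) (by ring)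
  have hc : ContractingWith ⟨1 - s, by linarith⟩ (hf.restrict f K K) := by
    refine ⟨?_, LipschitzWith.of_dist_le_mul fun u v => ?_⟩
    · rw [← NNReal.coe_lt_coe]
      show 1 - s < 1
      linarith
    · rw [Subtype.dist_eq, Subtype.dist_eq, MapsTo.val_restrict_apply, MapsTo.val_restrict_apply,
        dist_eq_norm, dist_eq_norm]
      have : f u - f v = (1 - s) • (T u - T v) := by
        simp only [f, smul_sub]; abel
      rw [this, norm_smul, Real.norm_eq_abs, abs_of_nonneg (by linarith)]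
      exact mul_le_mul_of_nonneg_left (hT _ u.2 _ v.2) (by linarith)
  obtain ⟨y, hy, hfy, -⟩ := hc.exists_fixedPoint' hK.cl.isComplete hf hx₀ (edist_ne_top _ _)
  refine ⟨y, hy, ?_⟩
  have h1 : T y - y = s • (T y - x₀) := by
    have : s • x₀ + (1 - s) • T y = y := hfy
    nth_rewrite 2 [← this]
    simp only [smul_sub, sub_smul, one_smul]; abel
  rw [h1, norm_smul, Real.norm_eq_abs, abs_of_pos hs0]
  exact mul_le_mul_of_nonneg_left (hd _ (hK.mt hy) _ hx₀) hs0.le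

/-- The standing data: a minimal invariant set of positive diameter with an approximate fixed point
sequence and its weak limit along an ultrafilter. -/
structure Ctx (X : Type*) [NormedAddCommGroup X] [NormedSpace ℝ X] where
  K : Set X
  T : X → X
  d : ℝ
  R : ℝ
  U : Ultrafilter ℕ
  a : ℕ → X
  b : X
  inv : Inv T K
  nonexp : ∀ u ∈ K, ∀ v ∈ K, ‖T u - T v‖ ≤ ‖u - v‖
  d_pos : 0 < d
  d_ub : ∀ u ∈ K, ∀ v ∈ K, ‖u - v‖ ≤ d
  d_least : ∀ r, (∀ u ∈ K, ∀ v ∈ K, ‖u - v‖ ≤ r) → d ≤ r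
  R_ub : ∀ u ∈ K, ‖u‖ ≤ R
  min : ∀ S, Inv T S → S ⊆ K → K ⊆ S
  a_mem : ∀ n, a n ∈ K
  a_afps : Tendsto (fun n => ‖T (a n) - a n‖) U (𝓝 0)
  b_lim : WLim (U : Filter ℕ) a b

lemma exists_ctx [CompleteSpace X]
    (hX : Function.Surjective (NormedSpace.inclusionInDoubleDual ℝ X))
    (C : Set X) (hC₁ : C.Nonempty) (hC₂ : IsClosed C) (hC₃ : Bornology.IsBounded C)
    (hC₄ : Convex ℝ C) (F : X → X) (hF₁ : Set.MapsTo F C C)
    (hF₂ : ∀ a ∈ C, ∀ b ∈ C, ‖F a - F b‖ ≤ ‖a - b‖) (H : ¬ ∃ x ∈ C, F x = x) :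
    Nonempty (Ctx X) := by
  obtain ⟨R, hR⟩ := hC₃.exists_norm_le
  obtain ⟨K, hKC, hK, hmin⟩ := exists_minimal hX F C ⟨hC₁, hC₂, hC₄, hF₁⟩ R hR
  have hKb : Bornology.IsBounded K := hC₃.subset hKC
  have hd : ∀ u ∈ K, ∀ v ∈ K, ‖u - v‖ ≤ Metric.diam K := fun u hu v hv => by
    rw [← dist_eq_norm]; exact Metric.dist_le_diam_of_mem hKb hu hv
  have hT : ∀ u ∈ K, ∀ v ∈ K, ‖F u - F v‖ ≤ ‖u - v‖ := fun u hu v hv =>
    hF₂ u (hKC hu) v (hKC hv)
  have hdpos : 0 < Metric.diam K := by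
    refine lt_of_le_of_ne Metric.diam_nonneg fun h0 => H ?_
    obtain ⟨x, hx⟩ := hK.ne
    refine ⟨x, hKC hx, ?_⟩
    have := hd _ (hK.mt hx) _ hx
    rw [← h0] at this
    exact sub_eq_zero.1 (norm_le_zero_iff.1 this)
  have h1 : ∀ n : ℕ, ∃ y ∈ K, ‖F y - y‖ ≤ 1 / ((n : ℝ) + 1) * Metric.diam K := fun n =>
    exists_approx_fixed F K hK hT _ hd _ (by positivity) (by
      rw [div_le_one (by positivity)]; linarith [n.cast_nonneg (α := ℝ)])
  choose a ha ha' using h1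
  obtain ⟨b, hb⟩ := exists_wlim hX (hyperfilter ℕ) a R (fun n => hR _ (hKC (ha n)))
  have hU : (hyperfilter ℕ : Filter ℕ) ≤ atTop := by
    rw [← Nat.cofinite_eq_atTop]; exact hyperfilter_le_cofinite
  refine ⟨⟨K, F, Metric.diam K, R, hyperfilter ℕ, a, b, hK, hT, hdpos, hd, fun r hr => ?_,
    fun u hu => hR _ (hKC hu), hmin, ha, ?_, hb⟩⟩
  · obtain ⟨x, hx⟩ := hK.ne
    refine Metric.diam_le_of_forall_dist_le ((norm_nonneg _).trans (hr x hx x hx))
      fun u hu v hv => ?_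
    rw [dist_eq_norm]; exact hr u hu v hv
  · refine Tendsto.mono_left ?_ hU
    have h2 := tendsto_one_div_add_atTop_nhds_zero_nat (𝕜 := ℝ) |>.mul_const (Metric.diam K)
    rw [zero_mul] at h2
    exact squeeze_zero (fun _ => norm_nonneg _) ha' h2

namespace Ctx

variable (c : Ctx X)

lemma b_mem : c.b ∈ c.K :=
  c.b_lim.mem c.inv.cl c.inv.cv (Filter.Eventually.of_forall c.a_mem)

lemma norm_combo {u v z : X} {r α β : ℝ} (hα : 0 ≤ α) (hβ : 0 ≤ β) (hαβ : α + β = 1)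
    (hu : ‖z - u‖ ≤ r) (hv : ‖z - v‖ ≤ r) : ‖z - (α • u + β • v)‖ ≤ r := by
  have : z - (α • u + β • v) = α • (z - u) + β • (z - v) := by
    have h : z = (α + β) • z := by rw [hαβ, one_smul]
    nth_rewrite 1 [h]
    simp only [smul_sub, add_smul]; abel
  rw [this]
  calc _ ≤ ‖α • (z - u)‖ + ‖β • (z - v)‖ := norm_add_le _ _
    _ = α * ‖z - u‖ + β * ‖z - v‖ := by
      rw [norm_smul, norm_smul, Real.norm_eq_abs, Real.norm_eq_abs, abs_of_nonneg hα,
        abs_of_nonneg hβ]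
    _ ≤ α * r + β * r := by gcongr
    _ = r := by rw [← add_mul, hαβ, one_mul]

/-- If one point of `K` is within `r` of all of `K`, then `d ≤ r`. -/
lemma diametral {w₀ : X} (hw₀ : w₀ ∈ c.K) {r : ℝ} (hr : ∀ z ∈ c.K, ‖w₀ - z‖ ≤ r) : c.d ≤ r := by
  have hS : Inv c.T {w | w ∈ c.K ∧ ∀ z ∈ c.K, ‖w - z‖ ≤ r} := by
    refine ⟨⟨w₀, hw₀, hr⟩, ?_, ?_, ?_⟩
    · have : {w | w ∈ c.K ∧ ∀ z ∈ c.K, ‖w - z‖ ≤ r} = c.K ∩ ⋂ z ∈ c.K, {w | ‖w - z‖ ≤ r} := by
        ext w; simp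
      rw [this]
      exact c.inv.cl.inter (isClosed_biInter fun z _ =>
        isClosed_le (f := fun w => ‖w - z‖) (by fun_prop) continuous_const)
    · rintro u ⟨hu, hu'⟩ v ⟨hv, hv'⟩ α β hα hβ hαβ
      refine ⟨c.inv.cv hu hv hα hβ hαβ, fun z hz => ?_⟩
      rw [norm_sub_rev]
      exact norm_combo hα hβ hαβ (by rw [norm_sub_rev]; exact hu' z hz)
        (by rw [norm_sub_rev]; exact hv' z hz)
    · rintro w ⟨hw, hw'⟩
      refine ⟨c.inv.mt hw, ?_⟩
      have hT : ∀ z ∈ c.K, ‖c.T w - c.T z‖ ≤ r := fun z hz =>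
        (c.nonexp _ hw _ hz).trans (hw' z hz)
      have hS3 : Inv c.T {z | z ∈ c.K ∧ ‖c.T w - z‖ ≤ r} := by
        refine ⟨⟨c.T w, c.inv.mt hw, hT w hw⟩, ?_, ?_, ?_⟩
        · exact c.inv.cl.inter
            (isClosed_le (f := fun z => ‖c.T w - z‖) (by fun_prop) continuous_const)
        · rintro u ⟨hu, hu'⟩ v ⟨hv, hv'⟩ α β hα hβ hαβ
          exact ⟨c.inv.cv hu hv hα hβ hαβ, norm_combo hα hβ hαβ hu' hv'⟩
        · rintro z ⟨hz, -⟩
          exact ⟨c.inv.mt hz, hT z hz⟩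
      exact fun z hz => (c.min _ hS3 (fun _ h => h.1) hz).2
  exact c.d_least r fun u hu => (c.min _ hS (fun _ h => h.1) hu).2

/-- Goebel–Karlovitz lemma. -/
lemma gk {y : X} (hy : y ∈ c.K) {δ : ℝ} (hδ : 0 < δ) :
    ∀ᶠ n in (c.U : Filter ℕ), c.d - δ ≤ ‖c.a n - y‖ := by
  by_contra H
  rw [← Ultrafilter.eventually_not] at H
  have hS : Inv c.T {z | z ∈ c.K ∧ ∀ η > 0, ∀ᶠ n in (c.U : Filter ℕ),
      ‖c.a n - z‖ ≤ c.d - δ + η} := by
    refine ⟨⟨y, hy, fun η hη => H.mono fun n hn => by linarith [not_le.1 hn]⟩, ?_, ?_, ?_⟩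
    · refine isClosed_of_closure_subset fun z hz => ⟨?_, fun η hη => ?_⟩
      · exact c.inv.cl.closure_subset (closure_mono (fun _ h => h.1) hz)
      · obtain ⟨z', ⟨-, hz'⟩, hd⟩ := Metric.mem_closure_iff.1 hz (η / 2) (by positivity)
        filter_upwards [hz' (η / 2) (by positivity)] with n hn
        rw [dist_eq_norm'] at hd
        have := norm_sub_le_norm_sub_add_norm_sub (c.a n) z' z
        linarith
    · rintro u ⟨hu, hu'⟩ v ⟨hv, hv'⟩ α β hα hβ hαβ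
      refine ⟨c.inv.cv hu hv hα hβ hαβ, fun η hη => ?_⟩
      filter_upwards [hu' η hη, hv' η hη] with n h1 h2
      exact norm_combo hα hβ hαβ h1 h2
    · rintro z ⟨hz, hz'⟩
      refine ⟨c.inv.mt hz, fun η hη => ?_⟩
      filter_upwards [hz' (η / 2) (by positivity),
        c.a_afps.eventually (ge_mem_nhds (show (0 : ℝ) < η / 2 by positivity))] with n h1 h2
      have h3 := norm_sub_le_norm_sub_add_norm_sub (c.a n) (c.T (c.a n)) (c.T z)
      have h4 := c.nonexp _ (c.a_mem n) _ hz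
      rw [norm_sub_rev] at h2
      linarith
  have h1 : ∀ z ∈ c.K, ‖c.b - z‖ ≤ c.d - δ := by
    intro z hz
    refine le_of_forall_pos_le_add fun η hη => ?_
    exact c.b_lim.norm_sub_le (WLim.const _ z) ((c.min _ hS (fun _ h => h.1) hz).2 η hη)
  linarith [c.diametral c.b_mem h1]

/-- Goebel–Karlovitz lemma, uniformly on compact sets. -/
lemma gk_compact {P : Set X} (hP : IsCompact P) (hPK : P ⊆ c.K) {δ : ℝ} (hδ : 0 < δ) :
    ∀ᶠ n in (c.U : Filter ℕ), ∀ y ∈ P, c.d - δ ≤ ‖c.a n - y‖ := by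
  obtain ⟨t, htP, htf, hcov⟩ := finite_cover_balls_of_compact hP (show 0 < δ / 2 by positivity)
  have h1 : ∀ᶠ n in (c.U : Filter ℕ), ∀ y ∈ t, c.d - δ / 2 ≤ ‖c.a n - y‖ :=
    (Filter.eventually_all_finite htf).2 fun y hy => c.gk (hPK (htP hy)) (by positivity)
  filter_upwards [h1] with n hn y hy
  obtain ⟨z, hz, hyz⟩ := mem_iUnion₂.1 (hcov hy)
  rw [mem_ball_iff_norm] at hyz
  have := norm_sub_le_norm_sub_add_norm_sub (c.a n) y z
  linarith [hn z hz]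

/-- Nonexpansive self-maps of `K` that almost fix approximate fixed points of `T`. -/
structure Adm (Λ : X → X) (e : ℝ) : Prop where
  e_nonneg : 0 ≤ e
  maps : MapsTo Λ c.K c.K
  lip : ∀ u ∈ c.K, ∀ v ∈ c.K, ‖Λ u - Λ v‖ ≤ ‖u - v‖
  pers : ∀ u ∈ c.K, ∀ a ∈ c.K, ‖Λ u - a‖ ≤ ‖u - a‖ + e * ‖c.T a - a‖

lemma exists_adm {x : X} (hx : x ∈ c.K) {ε : ℝ} (hε : 0 < ε) :
    ∃ Λ e, c.Adm Λ e ∧ ‖Λ c.b - x‖ ≤ ε := by
  let S : Set X := {y | ∃ Λ e, c.Adm Λ e ∧ y = Λ c.b}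
  have hSK : S ⊆ c.K := by
    rintro _ ⟨Λ, e, h, rfl⟩
    exact h.maps c.b_mem
  have hcl : closure S ⊆ c.K := c.inv.cl.closure_subset_iff.2 hSK
  have hS : Inv c.T (closure S) := by
    refine ⟨Set.Nonempty.closure ⟨c.b, id, 0, ⟨le_rfl, mapsTo_id _, fun _ _ _ _ => le_rfl,
      fun _ _ _ _ => by simp⟩, rfl⟩, isClosed_closure, Convex.closure ?_, ?_⟩
    · rintro _ ⟨Λ, e, h, rfl⟩ _ ⟨Λ', e', h', rfl⟩ α β hα hβ hαβ
      refine ⟨fun u => α • Λ u + β • Λ' u, e + e', ⟨add_nonneg h.e_nonneg h'.e_nonneg,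
        fun u hu => c.inv.cv (h.maps hu) (h'.maps hu) hα hβ hαβ, fun u hu v hv => ?_,
        fun u hu a ha => ?_⟩, rfl⟩
      · have : α • Λ u + β • Λ' u - (α • Λ v + β • Λ' v)
            = -(0 - (α • (Λ u - Λ v) + β • (Λ' u - Λ' v))) := by
          simp only [smul_sub]; abel
        rw [this, norm_neg]
        exact norm_combo hα hβ hαβ (by rw [zero_sub, norm_neg]; exact h.lip u hu v hv)
          (by rw [zero_sub, norm_neg]; exact h'.lip u hu v hv)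
      · rw [norm_sub_rev]
        have h1 := h.pers u hu a ha
        have h2 := h'.pers u hu a ha
        have h3 := mul_nonneg h.e_nonneg (norm_nonneg (c.T a - a))
        have h4 := mul_nonneg h'.e_nonneg (norm_nonneg (c.T a - a))
        exact norm_combo hα hβ hαβ (by rw [norm_sub_rev]; linarith)
          (by rw [norm_sub_rev]; linarith)
    · intro y hy
      rw [Metric.mem_closure_iff] at hy ⊢
      intro η hη
      obtain ⟨_, ⟨Λ, e, h, rfl⟩, hd⟩ := hy η hη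
      refine ⟨c.T (Λ c.b), ⟨fun u => c.T (Λ u), e + 1, ⟨by linarith [h.e_nonneg],
        fun u hu => c.inv.mt (h.maps hu), fun u hu v hv => ?_, fun u hu a ha => ?_⟩, rfl⟩, ?_⟩
      · exact (c.nonexp _ (h.maps hu) _ (h.maps hv)).trans (h.lip u hu v hv)
      · have h1 := norm_sub_le_norm_sub_add_norm_sub (c.T (Λ u)) (c.T a) a
        have h2 := c.nonexp _ (h.maps hu) _ ha
        have h3 := h.pers u hu a ha
        linarith
      · rw [dist_eq_norm] at hd ⊢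
        refine lt_of_le_of_lt (c.nonexp _ (hcl ?_) _ (h.maps c.b_mem)) hd
        exact Metric.mem_closure_iff.2 hy
  obtain ⟨_, ⟨Λ, e, h, rfl⟩, hd⟩ := Metric.mem_closure_iff.1 (c.min _ hS hcl hx) ε hε
  exact ⟨Λ, e, h, by rw [dist_eq_norm'] at hd; exact hd.le⟩

end Ctx

end Crest.Agent.R108
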