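import Crest.Agent.R108.Minimal

/-! Nodes and the splitting lemma. -/

namespace Crest.Agent.R108

open Filter Topology Set

variable {X : Type*} [NormedAddCommGroup X] [NormedSpace ℝ X]

lemma averaging (N : ℕ) (γ δ s : ℕ → ℝ) (M A ε ε' ε₃ : ℝ) (hγ : ∀ k, 0 ≤ γ k)
    (hγ1 : ∑ k ∈ Finset.range N, γ k = 1) (hδ : ∀ k, 0 ≤ δ k)
    (hδ1 : ∑ k ∈ Finset.range N, δ k ≤ ε₃) (hs : ∀ k < N, |s k| ≤ M * γ k) (hA : |A| ≤ M)
    (hε : 0 ≤ ε) (hsum : ∑ k ∈ Finset.range N, s k ≤ A + ε') (hlt : ε' + ε₃ * (2 * M + ε) < ε) :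
    ∃ k < N, δ k ≤ γ k ∧ s k ≤ γ k * (A + ε) := by
  by_contra H
  push Not at H
  have hM : 0 ≤ M := (abs_nonneg _).trans hA
  have h1 : ∀ k ∈ Finset.range N, γ k * (A + ε) - δ k * (2 * M + ε) ≤ s k := by
    intro k hk
    rw [Finset.mem_range] at hk
    by_cases h : δ k ≤ γ k
    · have := H k hk h
      have : 0 ≤ δ k * (2 * M + ε) := mul_nonneg (hδ k) (by positivity)
      linarith
    · push Not at h
      have h2 := (abs_le.1 (hs k hk)).1
      have h3 : γ k * (A + ε) ≤ γ k * (M + ε) :=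
        mul_le_mul_of_nonneg_left (by linarith [(abs_le.1 hA).2]) (hγ k)
      have h4 : γ k * (2 * M + ε) ≤ δ k * (2 * M + ε) :=
        mul_le_mul_of_nonneg_right h.le (by positivity)
      nlinarith
  have h2 := Finset.sum_le_sum h1
  rw [Finset.sum_sub_distrib, ← Finset.sum_mul, ← Finset.sum_mul, hγ1] at h2
  have h3 : (∑ k ∈ Finset.range N, δ k) * (2 * M + ε) ≤ ε₃ * (2 * M + ε) :=
    mul_le_mul_of_nonneg_right hδ1 (by positivity)
  linarith

namespace Ctx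

variable (c : Ctx X)

/-- Families of `t`-Lipschitz self-maps of `K` with the persistence estimate. -/
structure Fam (Ψ : ℕ → X → X) (t e : ℝ) : Prop where
  t_pos : 0 < t
  e_nonneg : 0 ≤ e
  maps : ∀ n, MapsTo (Ψ n) c.K c.K
  lip : ∀ n, ∀ u ∈ c.K, ∀ v ∈ c.K, ‖Ψ n u - Ψ n v‖ ≤ t * ‖u - v‖
  pers : ∀ n, ∀ u ∈ c.K, ∀ a ∈ c.K,
    ‖Ψ n u - a‖ ≤ (1 - t) * c.d + t * ‖u - a‖ + e * ‖c.T a - a‖

/-- A node of the splitting procedure. -/
structure Node where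
  Ψ : ℕ → X → X
  t : ℝ
  e : ℝ
  x : X
  q : X
  q' : X
  fam : c.Fam Ψ t e
  x_mem : x ∈ c.K
  q_lim : WLim (c.U : Filter ℕ) (fun n => Ψ n (c.a n)) q
  q'_lim : WLim (c.U : Filter ℕ) (fun n => Ψ n x) q'

variable {c}

/-- The normalised increment of a node. -/
noncomputable def Node.h (ν : c.Node) : X := ν.t⁻¹ • (ν.q - ν.q')

lemma Node.q_mem (ν : c.Node) : ν.q ∈ c.K :=
  ν.q_lim.mem c.inv.cl c.inv.cv (Filter.Eventually.of_forall fun n => ν.fam.maps n (c.a_mem n))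

lemma Node.q'_mem (ν : c.Node) : ν.q' ∈ c.K :=
  ν.q'_lim.mem c.inv.cl c.inv.cv (Filter.Eventually.of_forall fun n => ν.fam.maps n ν.x_mem)

lemma Node.norm_sub_le (ν : c.Node) : ‖ν.q - ν.q'‖ ≤ ν.t * c.d :=
  ν.q_lim.norm_sub_le ν.q'_lim (Filter.Eventually.of_forall fun n =>
    (ν.fam.lip n _ (c.a_mem n) _ ν.x_mem).trans
      (mul_le_mul_of_nonneg_left (c.d_ub _ (c.a_mem n) _ ν.x_mem) ν.fam.t_pos.le))

lemma Node.norm_h (ν : c.Node) : ‖ν.h‖ ≤ c.d := by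
  have ht := ν.fam.t_pos
  rw [Node.h, norm_smul, Real.norm_eq_abs, abs_of_pos (inv_pos.2 ht), inv_mul_le_iff₀ ht]
  exact ν.norm_sub_le

lemma Node.apply_h (ν : c.Node) (φ : StrongDual ℝ X) : φ ν.h = φ (ν.q - ν.q') / ν.t := by
  rw [Node.h, map_smul, smul_eq_mul, div_eq_inv_mul]

lemma Node.norm_q'_sub (ν : c.Node) : ‖ν.q' - ν.x‖ ≤ (1 - ν.t) * c.d + ν.e * ‖c.T ν.x - ν.x‖ :=
  ν.q'_lim.norm_sub_le (WLim.const _ _) (Filter.Eventually.of_forall fun n => by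
    have := ν.fam.pers n _ ν.x_mem _ ν.x_mem
    simpa using this)

variable (c)

lemma exists_node : Nonempty c.Node :=
  ⟨⟨fun _ u => u, 1, 0, c.b, c.b, c.b, ⟨one_pos, le_rfl, fun _ _ h => h, fun _ _ _ _ _ => by simp,
    fun _ _ _ _ _ => by simp⟩, c.b_mem, c.b_lim, WLim.const _ _⟩⟩

variable {c}

lemma Node.prep (ν : c.Node) {ε : ℝ} (hε : 0 < ε) :
    ∃ Ψ e, c.Fam Ψ ν.t e ∧ WLim (c.U : Filter ℕ) (fun n => Ψ n (c.a n)) ν.q ∧
      ∀ u ∈ c.K, ∀ y, WLim (c.U : Filter ℕ) (fun n => Ψ n u) y →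
        ‖y - ν.q'‖ ≤ ν.t * (ε + ‖u - c.b‖) := by
  obtain ⟨Λ, e, hΛ, hb⟩ := c.exists_adm ν.x_mem hε
  have ht := ν.fam.t_pos
  refine ⟨fun n u => ν.Ψ n (Λ u), ν.e + ν.t * e, ⟨ht, ?_, fun n u hu => ν.fam.maps n (hΛ.maps hu),
    fun n u hu v hv => ?_, fun n u hu a ha => ?_⟩, ?_, fun u hu y hy => ?_⟩
  · have := ν.fam.e_nonneg
    have := hΛ.e_nonneg
    positivity
  · exact (ν.fam.lip n _ (hΛ.maps hu) _ (hΛ.maps hv)).trans
      (mul_le_mul_of_nonneg_left (hΛ.lip u hu v hv) ht.le)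
  · have h1 := ν.fam.pers n _ (hΛ.maps hu) a ha
    have h2 := mul_le_mul_of_nonneg_left (hΛ.pers u hu a ha) ht.le
    linarith
  · refine ν.q_lim.congr ?_
    have h1 := c.a_afps.const_mul (ν.t * e)
    rw [mul_zero] at h1
    refine squeeze_zero (fun _ => norm_nonneg _) (fun n => ?_) h1
    have h2 := ν.fam.lip n _ (hΛ.maps (c.a_mem n)) _ (c.a_mem n)
    have h3 := mul_le_mul_of_nonneg_left (hΛ.pers _ (c.a_mem n) _ (c.a_mem n)) ht.le
    rw [sub_self, norm_zero, zero_add] at h3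
    linarith
  · refine hy.norm_sub_le ν.q'_lim (Filter.Eventually.of_forall fun n => ?_)
    refine (ν.fam.lip n _ (hΛ.maps hu) _ ν.x_mem).trans (mul_le_mul_of_nonneg_left ?_ ht.le)
    have h1 := norm_sub_le_norm_sub_add_norm_sub (Λ u) (Λ c.b) ν.x
    have h2 := hΛ.lip u hu _ c.b_mem
    linarith

variable (c)

/-- Partial convex combinations of points of `K`, together with their total weight. -/
def Dom : Set (X × ℝ) :=
  {p | ∀ v ∈ c.K, p.1 + (1 - p.2) • v ∈ c.K ∧ ‖p.1 - p.2 • v‖ ≤ p.2 * c.d}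

lemma convex_Dom : Convex ℝ c.Dom := by
  rintro ⟨u, τ⟩ hu ⟨u', τ'⟩ hu' α β hα hβ hαβ v hv
  obtain ⟨h1, h2⟩ := hu v hv
  obtain ⟨h1', h2'⟩ := hu' v hv
  simp only [Prod.smul_mk, Prod.mk_add_mk, smul_eq_mul] at *
  constructor
  · have := c.inv.cv h1 h1' hα hβ hαβ
    convert this using 1
    have h : (1 : ℝ) - (α * τ + β * τ') = α * (1 - τ) + β * (1 - τ') := by
      linear_combination (-1 : ℝ) * hαβ
    rw [h]
    simp only [smul_add, add_smul, mul_smul]; abel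
  · have : α • u + β • u' - (α * τ + β * τ') • v = α • (u - τ • v) + β • (u' - τ' • v) := by
      simp only [smul_sub, add_smul, mul_smul]; abel
    rw [this]
    calc _ ≤ ‖α • (u - τ • v)‖ + ‖β • (u' - τ' • v)‖ := norm_add_le _ _
      _ = α * ‖u - τ • v‖ + β * ‖u' - τ' • v‖ := by
        rw [norm_smul, norm_smul, Real.norm_eq_abs, Real.norm_eq_abs, abs_of_nonneg hα,
          abs_of_nonneg hβ]
      _ ≤ α * (τ * c.d) + β * (τ' * c.d) := by gcongr
      _ = _ := by ring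

lemma zero_mem_Dom : ((0 : X), (0 : ℝ)) ∈ c.Dom := fun v hv => by simpa using hv

lemma one_mem_Dom {y : X} (hy : y ∈ c.K) : (y, (1 : ℝ)) ∈ c.Dom := fun v hv => by
  simpa using ⟨hy, c.d_ub y hy v hv⟩

variable {c}

lemma Fam.exists_F (hX : Function.Surjective (NormedSpace.inclusionInDoubleDual ℝ X))
    {Ψ : ℕ → X → X} {t e : ℝ} (hΨ : c.Fam Ψ t e) :
    ∃ F : X × ℝ → X, (∀ p ∈ c.Dom,
      WLim (c.U : Filter ℕ) (fun n => Ψ n (p.1 + (1 - p.2) • c.a n)) (F p)) ∧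
      MapsTo F c.Dom c.K ∧ ContinuousOn F c.Dom := by
  have h1 : ∀ p : X × ℝ, ∃ y, p ∈ c.Dom →
      WLim (c.U : Filter ℕ) (fun n => Ψ n (p.1 + (1 - p.2) • c.a n)) y := by
    intro p
    by_cases hp : p ∈ c.Dom
    · obtain ⟨y, hy⟩ := exists_wlim hX c.U (fun n => Ψ n (p.1 + (1 - p.2) • c.a n)) c.R
        (fun n => c.R_ub _ (hΨ.maps n (hp _ (c.a_mem n)).1))
      exact ⟨y, fun _ => hy⟩
    · exact ⟨0, fun h => absurd h hp⟩
  choose F hF using h1
  have hR : 0 ≤ c.R := (norm_nonneg _).trans (c.R_ub _ c.b_mem)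
  have ht := hΨ.t_pos
  refine ⟨F, hF, fun p hp => (hF p hp).mem c.inv.cl c.inv.cv
    (Filter.Eventually.of_forall fun n => hΨ.maps n (hp _ (c.a_mem n)).1), ?_⟩
  refine (LipschitzOnWith.of_dist_le_mul (K := ⟨t * (1 + c.R), by positivity⟩)
    fun p hp p' hp' => ?_).continuousOn
  rw [dist_eq_norm]
  refine (hF p hp).norm_sub_le (hF p' hp') (Filter.Eventually.of_forall fun n => ?_)
  refine (hΨ.lip n _ (hp _ (c.a_mem n)).1 _ (hp' _ (c.a_mem n)).1).trans ?_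
  show _ ≤ t * (1 + c.R) * dist p p'
  rw [mul_assoc]
  refine mul_le_mul_of_nonneg_left ?_ ht.le
  have h2 : p.1 + (1 - p.2) • c.a n - (p'.1 + (1 - p'.2) • c.a n)
      = (p.1 - p'.1) - (p.2 - p'.2) • c.a n := by
    simp only [sub_smul]; abel
  have h3 : ‖p.1 - p'.1‖ ≤ dist p p' := by
    rw [← dist_eq_norm, Prod.dist_eq]; exact le_max_left _ _
  have h4 : ‖p.2 - p'.2‖ ≤ dist p p' := by
    rw [← dist_eq_norm, Prod.dist_eq]; exact le_max_right _ _
  rw [h2]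
  calc _ ≤ ‖p.1 - p'.1‖ + ‖(p.2 - p'.2) • c.a n‖ := norm_sub_le _ _
    _ = ‖p.1 - p'.1‖ + ‖p.2 - p'.2‖ * ‖c.a n‖ := by rw [norm_smul]
    _ ≤ dist p p' + dist p p' * c.R := by
      gcongr
      exact c.R_ub _ (c.a_mem n)
    _ = _ := by ring

lemma Fam.step_le {Ψ : ℕ → X → X} {t e : ℝ} (hΨ : c.Fam Ψ t e) {u y P₀ P₁ : X} {τ γ : ℝ}
    (hu : (u, τ) ∈ c.Dom) (hu' : (u + γ • y, τ + γ) ∈ c.Dom) (hγ : 0 ≤ γ) (hy : y ∈ c.K)
    (h₀ : WLim (c.U : Filter ℕ) (fun n => Ψ n (u + (1 - τ) • c.a n)) P₀)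
    (h₁ : WLim (c.U : Filter ℕ) (fun n => Ψ n (u + γ • y + (1 - (τ + γ)) • c.a n)) P₁) :
    ‖P₀ - P₁‖ ≤ t * γ * c.d := by
  refine h₀.norm_sub_le h₁ (Filter.Eventually.of_forall fun n => ?_)
  refine (hΨ.lip n _ (hu _ (c.a_mem n)).1 _ (hu' _ (c.a_mem n)).1).trans ?_
  rw [mul_assoc]
  refine mul_le_mul_of_nonneg_left ?_ hΨ.t_pos.le
  have : u + (1 - τ) • c.a n - (u + γ • y + (1 - (τ + γ)) • c.a n) = γ • (c.a n - y) := by
    simp only [sub_smul, add_smul, smul_sub]; abel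
  show ‖u + (1 - τ) • c.a n - (u + γ • y + (1 - (τ + γ)) • c.a n)‖ ≤ _
  rw [this, norm_smul, Real.norm_eq_abs, abs_of_nonneg hγ]
  exact mul_le_mul_of_nonneg_left (c.d_ub _ (c.a_mem n) _ hy) hγ

lemma Fam.child {Ψ : ℕ → X → X} {t e : ℝ} (hΨ : c.Fam Ψ t e) {u y P₀ P₁ : X} {τ γ : ℝ}
    (hu : (u, τ) ∈ c.Dom) (hγ : 0 < γ) (hτ : τ + γ ≤ 1) (hy : y ∈ c.K)
    (h₀ : WLim (c.U : Filter ℕ) (fun n => Ψ n (u + (1 - τ) • c.a n)) P₀)
    (h₁ : WLim (c.U : Filter ℕ) (fun n => Ψ n (u + γ • y + (1 - (τ + γ)) • c.a n)) P₁) :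
    ∃ ν : c.Node, ν.t = t * γ ∧ ν.e = e ∧ ν.x = y ∧ ν.q = P₀ ∧ ν.q' = P₁ := by
  have ht := hΨ.t_pos
  have hmem : ∀ n, ∀ v ∈ c.K, u + γ • v + (1 - (τ + γ)) • c.a n ∈ c.K := by
    intro n v hv
    have h1 : 0 < 1 - τ := by linarith
    have h2 : (γ / (1 - τ)) • v + ((1 - (τ + γ)) / (1 - τ)) • c.a n ∈ c.K :=
      c.inv.cv hv (c.a_mem n) (by positivity) (div_nonneg (by linarith) h1.le)
        (by field_simp; ring)
    have h3 := (hu _ h2).1
    simp only [smul_add, smul_smul] at h3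
    rw [mul_div_cancel₀ _ h1.ne', mul_div_cancel₀ _ h1.ne', ← add_assoc] at h3
    exact h3
  refine ⟨⟨fun n v => Ψ n (u + γ • v + (1 - (τ + γ)) • c.a n), t * γ, e, y, P₀, P₁,
    ⟨by positivity, hΨ.e_nonneg, fun n v hv => hΨ.maps n (hmem n v hv), fun n v hv v' hv' => ?_,
      fun n v hv a ha => ?_⟩, hy, ?_, h₁⟩, rfl, rfl, rfl, rfl, rfl⟩
  · refine (hΨ.lip n _ (hmem n v hv) _ (hmem n v' hv')).trans (le_of_eq ?_)
    have : u + γ • v + (1 - (τ + γ)) • c.a n - (u + γ • v' + (1 - (τ + γ)) • c.a n)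
        = γ • (v - v') := by
      simp only [smul_sub]; abel
    rw [this, norm_smul, Real.norm_eq_abs, abs_of_pos hγ, mul_assoc]
  · have h1 := hΨ.pers n _ (hmem n v hv) a ha
    have h2 : u + γ • v + (1 - (τ + γ)) • c.a n - a
        = (u - τ • a) + γ • (v - a) + (1 - (τ + γ)) • (c.a n - a) := by
      simp only [smul_sub, sub_smul, add_smul, one_smul]; abel
    have h3 : ‖u + γ • v + (1 - (τ + γ)) • c.a n - a‖
        ≤ τ * c.d + γ * ‖v - a‖ + (1 - (τ + γ)) * c.d := by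
      rw [h2]
      refine (norm_add₃_le).trans ?_
      rw [norm_smul, norm_smul, Real.norm_eq_abs, Real.norm_eq_abs, abs_of_pos hγ,
        abs_of_nonneg (by linarith)]
      have h4 : ‖u - τ • a‖ ≤ τ * c.d := (hu a ha).2
      have h5 : (1 - (τ + γ)) * ‖c.a n - a‖ ≤ (1 - (τ + γ)) * c.d :=
        mul_le_mul_of_nonneg_left (c.d_ub _ (c.a_mem n) _ ha) (by linarith)
      linarith
    have h4 := mul_le_mul_of_nonneg_left h3 ht.le
    linarith
  · have : ∀ n, u + γ • c.a n + (1 - (τ + γ)) • c.a n = u + (1 - τ) • c.a n := by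
      intro n
      simp only [sub_smul, add_smul]; abel
    simp only [this]
    exact h₀

/-- The splitting lemma. -/
lemma Node.split (hX : Function.Surjective (NormedSpace.inclusionInDoubleDual ℝ X))
    (ν : c.Node) (φ : StrongDual ℝ X) {w : X} (hw : w ∈ c.K) {ε : ℝ} (hε : 0 < ε) :
    ∃ (ν' : c.Node) (g : StrongDual ℝ X), ‖g‖ ≤ 1 ∧ φ ν'.h ≤ φ ν.h + ε ∧ g ν'.h ≤ -c.d + ε ∧
      ∀ v ∈ c.K, -ε ≤ g (v - w) := by
  classical
  have ht := ν.fam.t_pos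
  have hd := c.d_pos
  set M : ℝ := ‖φ‖ * c.d with hM
  have hM0 : 0 ≤ M := by positivity
  set ε₁ : ℝ := ε / (4 * (‖φ‖ + 1)) with hε₁
  have hε₁0 : 0 < ε₁ := by positivity
  set ε₃ : ℝ := ε / (2 * (2 * M + ε)) with hε₃
  have hε₃0 : 0 < ε₃ := by positivity
  let δ : ℕ → ℝ := fun k => ε₃ / 2 * (1 / 2) ^ k
  have hδ : ∀ k, 0 < δ k := fun k => by positivity
  let η : ℕ → ℝ := fun k => Min.min (ε * (ν.t * δ k) / 3) (ε / 2)
  have hη : ∀ k, 0 < η k := fun k => lt_min (by have := hδ k; positivity) (by positivity)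
  obtain ⟨Ψ, e, hΨ, hq, hq'⟩ := ν.prep hε₁0
  obtain ⟨F, hF, hFK, hFc⟩ := hΨ.exists_F hX
  let D : Finset ℕ → Set (X × ℝ) := fun s =>
    convexHull ℝ (insert ((0 : X), (0 : ℝ)) ((fun m => (c.a m, (1 : ℝ))) '' (SetLike.coe s)))
  have hDc : ∀ s, IsCompact (D s) := fun s =>
    ((s.finite_toSet.image _).insert _).isCompact_convexHull ℝ
  have hDD : ∀ s, D s ⊆ c.Dom := fun s => by
    refine convexHull_min ?_ c.convex_Dom
    rintro p (rfl | ⟨m, -, rfl⟩)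
    · exact c.zero_mem_Dom
    · exact c.one_mem_Dom (c.a_mem m)
  let W : X × ℝ → X := fun p => (1 / 2 : ℝ) • F p + (1 / 2 : ℝ) • w
  let A : ℕ → Finset ℕ → Set ℕ := fun k s =>
    {m | e * ‖c.T (c.a m) - c.a m‖ ≤ η k ∧ ∀ y ∈ W '' D s, c.d - η k ≤ ‖c.a m - y‖}
  have hA : ∀ k s, A k s ∈ c.U := by
    intro k s
    have h1 : ∀ᶠ m in (c.U : Filter ℕ), e * ‖c.T (c.a m) - c.a m‖ ≤ η k := by
      have := c.a_afps.const_mul e
      rw [mul_zero] at this
      exact this.eventually (ge_mem_nhds (hη k))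
    have h2 : ∀ᶠ m in (c.U : Filter ℕ), ∀ y ∈ W '' D s, c.d - η k ≤ ‖c.a m - y‖ := by
      refine c.gk_compact ((hDc s).image_of_continuousOn ?_) ?_ (hη k)
      · exact ((hFc.mono (hDD s)).const_smul (1 / 2 : ℝ)).add continuousOn_const
      · rintro _ ⟨p, hp, rfl⟩
        exact c.inv.cv (hFK (hDD s hp)) hw (by norm_num) (by norm_num) (by norm_num)
    exact h1.and h2
  obtain ⟨m, N, γ, hm, hγ, hγ1, hb⟩ := adaptive_mazur hX c.U c.a c.R
    (fun n => c.R_ub _ (c.a_mem n)) c.b c.b_lim A hA ε₁ hε₁0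
  let u : ℕ → X := fun k => ∑ i ∈ Finset.range k, γ i • c.a (m i)
  let τ : ℕ → ℝ := fun k => ∑ i ∈ Finset.range k, γ i
  have hu : ∀ k, u (k + 1) = u k + γ k • c.a (m k) := fun k => Finset.sum_range_succ _ _
  have hτ : ∀ k, τ (k + 1) = τ k + γ k := fun k => Finset.sum_range_succ _ _
  have hτ1 : ∀ k ≤ N, τ k ≤ 1 := fun k hk => by
    rw [← hγ1]
    exact Finset.sum_le_sum_of_subset_of_nonneg (Finset.range_subset_range.2 hk)
      fun i _ _ => hγ i
  have huD : ∀ k ≤ N, (u k, τ k) ∈ D ((Finset.range k).image m) := by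
    intro k hk
    have hcv : Convex ℝ (D ((Finset.range k).image m)) := convex_convexHull ℝ _
    have h1 := hcv.sum_mem (t := Finset.range (k + 1))
      (w := fun i => if i = k then 1 - τ k else γ i)
      (z := fun i => if i = k then ((0 : X), (0 : ℝ)) else (c.a (m i), (1 : ℝ)))
      (fun i _ => by
        split_ifs
        · linarith [hτ1 k hk]
        · exact hγ i)
      (by
        rw [Finset.sum_range_succ, if_pos rfl,
          Finset.sum_congr rfl (g := γ) fun i hi => if_neg (Finset.mem_range.1 hi).ne]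
        show τ k + (1 - τ k) = 1
        ring)
      (fun i hi => by
        refine subset_convexHull ℝ _ ?_
        split_ifs with h
        · exact mem_insert _ _
        · refine mem_insert_of_mem _ ⟨m i, ?_, rfl⟩
          rw [Finset.mem_coe]
          refine Finset.mem_image_of_mem m (Finset.mem_range.2 ?_)
          exact lt_of_le_of_ne (Nat.lt_succ_iff.1 (Finset.mem_range.1 hi)) h)
    rw [Finset.sum_range_succ, if_pos rfl, if_pos rfl,
      Finset.sum_congr rfl (g := fun i => γ i • (c.a (m i), (1 : ℝ))) fun i hi => by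
        rw [if_neg (Finset.mem_range.1 hi).ne, if_neg (Finset.mem_range.1 hi).ne]] at h1
    convert h1 using 1
    ext
    · simp [u, Prod.fst_sum]
    · simp [τ, Prod.snd_sum]
  have huDom : ∀ k ≤ N, (u k, τ k) ∈ c.Dom := fun k hk => hDD _ (huD k hk)
  let p : ℕ → X := fun k => F (u k, τ k)
  have hp : ∀ k ≤ N,
      WLim (c.U : Filter ℕ) (fun n => Ψ n (u k + (1 - τ k) • c.a n)) (p k) :=
    fun k hk => hF _ (huDom k hk)
  have hp' : ∀ k < N, WLim (c.U : Filter ℕ)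
      (fun n => Ψ n (u k + γ k • c.a (m k) + (1 - (τ k + γ k)) • c.a n)) (p (k + 1)) := by
    intro k hk
    have := hp (k + 1) hk
    rwa [hu, hτ] at this
  have hp0 : p 0 = ν.q := by
    have h1 := hp 0 (Nat.zero_le _)
    simp only [u, τ, Finset.sum_range_zero, sub_zero, one_smul, zero_add] at h1
    have := h1.norm_sub_le hq (r := 0) (Filter.Eventually.of_forall fun n => by simp)
    exact sub_eq_zero.1 (norm_le_zero_iff.1 this)
  have hτN : τ N = 1 := hγ1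
  have hpN : ‖p N - ν.q'‖ ≤ ν.t * (ε₁ + ε₁) := by
    have h1 := hp N le_rfl
    simp only [hτN, sub_self, zero_smul, add_zero] at h1
    have h2 : u N ∈ c.K := by
      have := (huDom N le_rfl _ c.b_mem).1
      simpa only [hτN, sub_self, zero_smul, add_zero] using this
    refine (hq' _ h2 _ h1).trans (mul_le_mul_of_nonneg_left ?_ ht.le)
    linarith [hb.le]
  have hstep : ∀ k < N, ‖p k - p (k + 1)‖ ≤ ν.t * γ k * c.d := by
    intro k hk
    refine hΨ.step_le (huDom k hk.le) ?_ (hγ k) (c.a_mem (m k)) (hp k hk.le) (hp' k hk)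
    rw [← hu, ← hτ]
    exact huDom (k + 1) hk
  have hφb : ∀ z : X, |φ z| ≤ ‖φ‖ * ‖z‖ := fun z => φ.le_opNorm z
  obtain ⟨k, hk, hδγ, hsk⟩ := averaging N γ δ (fun k => φ (p k - p (k + 1)) / ν.t) M (φ ν.h) ε
    (‖φ‖ * (ε₁ + ε₁)) ε₃ hγ hγ1 (fun k => (hδ k).le)
    (by
      simp only [δ]
      rw [← Finset.mul_sum]
      have := sum_geometric_two_le N
      nlinarith)
    (fun k hk => by
      rw [abs_div, abs_of_pos ht, div_le_iff₀ ht]
      refine (hφb _).trans ?_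
      have := mul_le_mul_of_nonneg_left (hstep k hk) (norm_nonneg φ)
      rw [hM]; linarith)
    ((hφb _).trans (mul_le_mul_of_nonneg_left ν.norm_h (norm_nonneg φ))) hε.le
    (by
      rw [← Finset.sum_div, ← map_sum, Finset.sum_range_sub', hp0, ν.apply_h, div_le_iff₀ ht,
        add_mul, div_mul_cancel₀ _ ht.ne']
      have h1 : ν.q - p N = (ν.q - ν.q') - (p N - ν.q') := by abel
      rw [h1, map_sub]
      have h2 := (abs_le.1 ((hφb (p N - ν.q')).trans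
        (mul_le_mul_of_nonneg_left hpN (norm_nonneg φ)))).1
      linarith)
    (by
      have h1 : ε₃ * (2 * M + ε) = ε / 2 := by rw [hε₃]; field_simp
      have h2 : (‖φ‖ + 1) * (ε₁ + ε₁) = ε / 2 := by rw [hε₁]; field_simp; ring
      nlinarith)
  have hγk : 0 < γ k := (hδ k).trans_le hδγ
  obtain ⟨ν', h1, h2, h3, h4, h5⟩ := hΨ.child (huDom k hk.le) hγk
    (by rw [← hτ]; exact hτ1 (k + 1) hk) (c.a_mem (m k)) (hp k hk.le) (hp' k hk)
  obtain ⟨hm1, hm2⟩ := hm k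
  have hm3 := hm2 _ ⟨_, huD k hk.le, rfl⟩
  obtain ⟨g, hg, hg'⟩ := exists_dual_vector'' ℝ (c.a (m k) - W (u k, τ k))
  have hgb : ∀ z : X, g z ≤ ‖z‖ := fun z =>
    (le_abs_self _).trans ((g.le_opNorm z).trans (mul_le_of_le_one_left (norm_nonneg _) hg))
  have hpk : p k ∈ c.K := hFK (huDom k hk.le)
  have e1 : c.d - η k ≤ 1 / 2 * g (c.a (m k) - p k) + 1 / 2 * g (c.a (m k) - w) := by
    have : c.a (m k) - W (u k, τ k)
        = (1 / 2 : ℝ) • (c.a (m k) - p k) + (1 / 2 : ℝ) • (c.a (m k) - w) := by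
      simp only [W, p, smul_sub]
      have : c.a (m k) = (1 / 2 : ℝ) • c.a (m k) + (1 / 2 : ℝ) • c.a (m k) := by
        rw [← add_smul]; norm_num
      nth_rewrite 1 [this]
      abel
    have h := hg'
    rw [this, map_add, map_smul, map_smul, smul_eq_mul, smul_eq_mul, ← this] at h
    rw [h]
    exact hm3
  have e2 : g (c.a (m k) - p k) ≤ c.d := (hgb _).trans (c.d_ub _ (c.a_mem _) _ hpk)
  have e3 : g (c.a (m k) - w) ≤ c.d := (hgb _).trans (c.d_ub _ (c.a_mem _) _ hw)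
  have e4 : g (c.a (m k) - p (k + 1)) ≤ (1 - ν.t * γ k) * c.d + η k := by
    have := ν'.norm_q'_sub
    rw [h1, h2, h3, h5, norm_sub_rev] at this
    linarith [hgb (c.a (m k) - p (k + 1))]
  have htγ : 0 < ν.t * γ k := by positivity
  refine ⟨ν', g, hg, ?_, ?_, fun v hv => ?_⟩
  · rw [ν'.apply_h, h1, h4, h5, div_le_iff₀ htγ]
    rw [div_le_iff₀ ht] at hsk
    linarith
  · rw [ν'.apply_h, h1, h4, h5, div_le_iff₀ htγ]
    have e5 : g (p k - p (k + 1)) = g (c.a (m k) - p (k + 1)) - g (c.a (m k) - p k) := by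
      rw [← map_sub]; congr 1; abel
    have e6 : η k ≤ ε * (ν.t * δ k) / 3 := min_le_left _ _
    have e7 : ε * (ν.t * δ k) ≤ ε * (ν.t * γ k) := by gcongr
    rw [e5]
    linarith
  · have e5 : g (v - w) = g (c.a (m k) - w) - g (c.a (m k) - v) := by
      rw [← map_sub]; congr 1; abel
    have e6 : η k ≤ ε / 2 := min_le_right _ _
    have e7 : g (c.a (m k) - v) ≤ c.d := (hgb _).trans (c.d_ub _ (c.a_mem _) _ hv)
    rw [e5]
    linarith

end Ctx

end Crest.Agent.R108
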