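import Mathlib

/-! Weak limits along ultrafilters in reflexive spaces. -/

namespace Crest.Agent.R108

open Filter Topology Set

variable {X : Type*} [NormedAddCommGroup X] [NormedSpace ℝ X]

/-- `x` is the weak limit of `f` along `l`. -/
def WLim {ι : Type*} (l : Filter ι) (f : ι → X) (x : X) : Prop :=
  ∀ φ : StrongDual ℝ X, Tendsto (fun i => φ (f i)) l (𝓝 (φ x))

lemma exists_tendsto_ultra {ι : Type*} (U : Ultrafilter ι) (f : ι → ℝ) (R : ℝ)
    (hf : ∀ i, |f i| ≤ R) : ∃ r, Tendsto f U (𝓝 r) := by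
  have hc : IsCompact (Icc (-R) R) := isCompact_Icc
  have : (U.map f : Filter ℝ) ≤ 𝓟 (Icc (-R) R) := by
    rw [le_principal_iff]
    exact Filter.mem_map.2 (Filter.univ_mem' fun i => abs_le.1 (hf i))
  obtain ⟨r, -, hr⟩ := hc.ultrafilter_le_nhds (U.map f) this
  exact ⟨r, hr⟩

lemma exists_wstar_lim {ι : Type*} (U : Ultrafilter ι) (g : ι → StrongDual ℝ X) (R : ℝ)
    (hg : ∀ i, ‖g i‖ ≤ R) :
    ∃ G : StrongDual ℝ X, ∀ x, Tendsto (fun i => g i x) U (𝓝 (G x)) := by
  have h1 : ∀ x : X, ∃ r, Tendsto (fun i => g i x) U (𝓝 r) := fun x =>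
    exists_tendsto_ultra U _ (R * ‖x‖) fun i =>
      ((g i).le_opNorm x).trans (mul_le_mul_of_nonneg_right (hg i) (norm_nonneg _))
  choose G0 hG0 using h1
  let L : X →ₗ[ℝ] ℝ :=
    { toFun := G0
      map_add' := fun x y => by
        refine tendsto_nhds_unique (hG0 (x + y)) ?_
        simpa only [map_add] using (hG0 x).add (hG0 y)
      map_smul' := fun c x => by
        refine tendsto_nhds_unique (hG0 (c • x)) ?_
        simpa only [map_smul, smul_eq_mul, RingHom.id_apply] using (hG0 x).const_mul c }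
  have hb : ∀ x, ‖L x‖ ≤ R * ‖x‖ := fun x => by
    refine le_of_tendsto (hG0 x).norm (Filter.Eventually.of_forall fun i => ?_)
    exact ((g i).le_opNorm x).trans (mul_le_mul_of_nonneg_right (hg i) (norm_nonneg _))
  exact ⟨L.mkContinuous R hb, hG0⟩

lemma exists_wlim (hX : Function.Surjective (NormedSpace.inclusionInDoubleDual ℝ X))
    {ι : Type*} (U : Ultrafilter ι) (f : ι → X) (R : ℝ) (hf : ∀ i, ‖f i‖ ≤ R) :
    ∃ x, WLim (U : Filter ι) f x := by
  obtain ⟨G, hG⟩ := exists_wstar_lim U (fun i => NormedSpace.inclusionInDoubleDual ℝ X (f i)) R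
    (fun i => (NormedSpace.double_dual_bound ℝ X (f i)).trans (hf i))
  obtain ⟨x, rfl⟩ := hX G
  exact ⟨x, fun φ => hG φ⟩

lemma WLim.mem {ι : Type*} {l : Filter ι} [l.NeBot] {f : ι → X} {x : X} (h : WLim l f x)
    {S : Set X} (hS : IsClosed S) (hS' : Convex ℝ S) (hf : ∀ᶠ i in l, f i ∈ S) : x ∈ S := by
  by_contra hx
  obtain ⟨φ, u, h1, h2⟩ := geometric_hahn_banach_point_closed hS' hS hx
  have : u ≤ φ x := ge_of_tendsto (h φ) (hf.mono fun i hi => (h2 _ hi).le)
  linarith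

lemma WLim.norm_sub_le {ι : Type*} {l : Filter ι} [l.NeBot] {f g : ι → X} {x y : X}
    (h : WLim l f x) (h' : WLim l g y) {r : ℝ} (hr : ∀ᶠ i in l, ‖f i - g i‖ ≤ r) :
    ‖x - y‖ ≤ r := by
  obtain ⟨φ, hφ, hφ'⟩ := exists_dual_vector'' ℝ (x - y)
  have h1 : Tendsto (fun i => φ (f i) - φ (g i)) l (𝓝 (φ x - φ y)) := (h φ).sub (h' φ)
  have h2 : φ x - φ y ≤ r := by
    refine le_of_tendsto h1 (hr.mono fun i hi => ?_)
    rw [← map_sub]
    calc φ (f i - g i) ≤ ‖φ (f i - g i)‖ := Real.le_norm_self _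
      _ ≤ ‖φ‖ * ‖f i - g i‖ := φ.le_opNorm _
      _ ≤ 1 * ‖f i - g i‖ := mul_le_mul_of_nonneg_right hφ (norm_nonneg _)
      _ ≤ r := by rw [one_mul]; exact hi
  rw [← map_sub, hφ'] at h2
  exact h2

lemma WLim.const {ι : Type*} (l : Filter ι) (x : X) : WLim l (fun _ => x) x :=
  fun _ => tendsto_const_nhds

lemma WLim.congr {ι : Type*} {l : Filter ι} {f g : ι → X} {x : X} (h : WLim l f x)
    (hfg : Tendsto (fun i => ‖g i - f i‖) l (𝓝 0)) : WLim l g x := by
  intro φ
  have h1 : Tendsto (fun i => g i - f i) l (𝓝 0) := tendsto_zero_iff_norm_tendsto_zero.2 hfg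
  have h2 : Tendsto (fun i => φ (g i - f i)) l (𝓝 0) := by
    have := (φ.continuous.tendsto 0).comp h1
    simpa only [map_zero, Function.comp_def] using this
  have := h2.add (h φ)
  simpa only [map_sub, sub_add_cancel, zero_add] using this

/-- The double limit criterion in a reflexive space. -/
lemma double_limit (hX : Function.Surjective (NormedSpace.inclusionInDoubleDual ℝ X))
    (h : ℕ → X) (g : ℕ → StrongDual ℝ X) (R R' : ℝ) (hh : ∀ l, ‖h l‖ ≤ R) (hg : ∀ i, ‖g i‖ ≤ R')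
    {α β : ℝ} (hαβ : α < β) (h1 : ∀ i l, i ≤ l → g i (h l) ≤ α)
    (h2 : ∀ i l, l < i → β ≤ g i (h l)) : False := by
  obtain ⟨x, hx⟩ := exists_wlim hX (hyperfilter ℕ) h R hh
  obtain ⟨G, hG⟩ := exists_wstar_lim (hyperfilter ℕ) g R' hg
  have hU : (hyperfilter ℕ : Filter ℕ) ≤ atTop := by
    rw [← Nat.cofinite_eq_atTop]; exact hyperfilter_le_cofinite
  have a1 : ∀ l, β ≤ G (h l) := fun l =>
    ge_of_tendsto (hG (h l)) (hU ((eventually_gt_atTop l).mono fun i hi => h2 i l hi))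
  have a2 : β ≤ G x := ge_of_tendsto (hx G) (Filter.Eventually.of_forall a1)
  have a3 : ∀ i, g i x ≤ α := fun i =>
    le_of_tendsto (hx (g i)) (hU ((eventually_ge_atTop i).mono fun l hl => h1 i l hl))
  have a4 : G x ≤ α := le_of_tendsto (hG x) (Filter.Eventually.of_forall a3)
  linarith

lemma exists_sep (S : Set X) (b : X) (ε : ℝ) (hε : 0 < ε) :
    ∃ φ : StrongDual ℝ X, ‖φ‖ ≤ 1 ∧
      ((∀ y ∈ convexHull ℝ S, ε ≤ ‖y - b‖) → ∀ y ∈ S, ε / 2 ≤ φ (y - b)) := by
  by_cases H : ∀ y ∈ convexHull ℝ S, ε ≤ ‖y - b‖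
  swap
  · exact ⟨0, by simp, fun h => absurd h H⟩
  have hd : Disjoint (Metric.ball b ε) (convexHull ℝ S) := by
    rw [Set.disjoint_left]
    intro y hy hy'
    have := H y hy'
    rw [mem_ball_iff_norm] at hy
    linarith
  obtain ⟨f, u, h1, h2⟩ := geometric_hahn_banach_open (convex_ball b ε) Metric.isOpen_ball
    (convex_convexHull ℝ S) hd
  have hc : 0 < u - f b := sub_pos.2 (h1 b (Metric.mem_ball_self hε))
  have key : ∀ v : X, ‖v‖ = 1 → ε / 2 * f v ≤ u - f b := by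
    intro v hv
    have : b + (ε / 2) • v ∈ Metric.ball b ε := by
      rw [mem_ball_iff_norm, add_sub_cancel_left, norm_smul, hv, Real.norm_eq_abs,
        abs_of_pos (by positivity)]
      linarith
    have := h1 _ this
    rw [map_add, map_smul, smul_eq_mul] at this
    linarith
  refine ⟨(ε / 2 / (u - f b)) • f, ?_, fun _ y hy => ?_⟩
  · refine ContinuousLinearMap.opNorm_le_of_unit_norm zero_le_one fun v hv => ?_
    have k1 := key v hv
    have k2 := key (-v) (by rwa [norm_neg])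
    rw [map_neg] at k2
    rw [smul_apply, smul_eq_mul, Real.norm_eq_abs, abs_le]
    constructor
    · rw [div_mul_eq_mul_div, le_div_iff₀ hc]; linarith
    · rw [div_mul_eq_mul_div, div_le_iff₀ hc]; linarith
  · have := h2 y (subset_convexHull ℝ S hy)
    rw [smul_apply, smul_eq_mul, map_sub, div_mul_eq_mul_div, le_div_iff₀ hc]
    have h3 : u - f b ≤ f y - f b := by linarith
    exact mul_le_mul_of_nonneg_left h3 (by positivity)

/-- Adaptive Mazur lemma. -/
lemma adaptive_mazur (hX : Function.Surjective (NormedSpace.inclusionInDoubleDual ℝ X))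
    (U : Ultrafilter ℕ) (a : ℕ → X) (R : ℝ) (ha : ∀ n, ‖a n‖ ≤ R) (b : X)
    (hb : WLim (U : Filter ℕ) a b) (A : ℕ → Finset ℕ → Set ℕ) (hA : ∀ k s, A k s ∈ U)
    (ε : ℝ) (hε : 0 < ε) :
    ∃ (m : ℕ → ℕ) (N : ℕ) (γ : ℕ → ℝ), (∀ k, m k ∈ A k ((Finset.range k).image m)) ∧
      (∀ k, 0 ≤ γ k) ∧ ∑ k ∈ Finset.range N, γ k = 1 ∧
      ‖∑ k ∈ Finset.range N, γ k • a (m k) - b‖ < ε := by
  classical
  choose φ hφ hφ' using fun s : Finset ℕ => exists_sep (a '' (s : Set ℕ)) b ε hε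
  have hB : ∀ (k : ℕ) (s : Finset ℕ), ∃ n, n ∈ A k s ∧ ∀ s' ∈ s.powerset,
      φ s' (a n - b) ≤ ε / 4 := by
    intro k s
    have h1 : ∀ᶠ n in (U : Filter ℕ), ∀ s' ∈ s.powerset, φ s' (a n - b) ≤ ε / 4 := by
      rw [Filter.eventually_all_finset]
      intro s' _
      have := (hb (φ s')).sub_const (φ s' b)
      rw [sub_self] at this
      have h2 := this.eventually (ge_mem_nhds (show (0 : ℝ) < ε / 4 by positivity))
      exact h2.mono fun n hn => by rw [map_sub]; exact hn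
    have h2 : ∀ᶠ n in (U : Filter ℕ), n ∈ A k s := hA k s
    exact (h2.and h1).exists
  choose nx hnx hnx' using hB
  let s : ℕ → Finset ℕ := fun k => Nat.rec ∅ (fun k s => insert (nx k s) s) k
  let m : ℕ → ℕ := fun k => nx k (s k)
  have hs : ∀ k, s k = (Finset.range k).image m := by
    intro k
    induction k with
    | zero => simp [s]
    | succ k ih =>
      rw [Finset.range_add_one, Finset.image_insert, ← ih]
  by_contra H
  push Not at H
  have hE : ∀ N : ℕ, ∀ y ∈ convexHull ℝ (a '' (SetLike.coe (s N))), ε ≤ ‖y - b‖ := by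
    intro N
    have hsub : convexHull ℝ (a '' (SetLike.coe (s N))) ⊆ {y | ∃ γ : ℕ → ℝ, (∀ k, 0 ≤ γ k) ∧
        ∑ k ∈ Finset.range N, γ k = 1 ∧ y = ∑ k ∈ Finset.range N, γ k • a (m k)} := by
      apply convexHull_min
      · rintro _ ⟨n, hn, rfl⟩
        rw [hs, Finset.mem_coe, Finset.mem_image] at hn
        obtain ⟨j, hj, rfl⟩ := hn
        refine ⟨fun k => if k = j then 1 else 0, fun k => by positivity, ?_, ?_⟩
        · simp [Finset.sum_ite_eq', hj]
        · simp [ite_smul, Finset.sum_ite_eq', hj]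
      · rintro _ ⟨γ, h1, h2, rfl⟩ _ ⟨γ', h1', h2', rfl⟩ α β hα hβ hαβ
        refine ⟨fun k => α * γ k + β * γ' k, fun k => by have := h1 k; have := h1' k; positivity,
          ?_, ?_⟩
        · rw [Finset.sum_add_distrib, ← Finset.mul_sum, ← Finset.mul_sum, h2, h2']; linarith
        · simp only [Finset.smul_sum, add_smul, mul_smul, Finset.sum_add_distrib]
    intro y hy
    obtain ⟨γ, h1, h2, rfl⟩ := hsub hy
    exact H m N γ (fun k => by rw [← hs]; exact hnx k (s k)) h1 h2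
  refine double_limit hX (fun l => a (m l) - b) (fun i => φ (s i)) (R + ‖b‖) 1
    (fun l => (norm_sub_le _ _).trans (by linarith [ha (m l)])) (fun i => hφ _)
    (show ε / 4 < ε / 2 by linarith) (fun i l hil => ?_) (fun i l hli => ?_)
  · refine hnx' l (s l) (s i) (Finset.mem_powerset.2 ?_)
    rw [hs, hs]
    exact Finset.image_subset_image (Finset.range_subset_range.2 hil)
  · refine hφ' (s i) (hE i) _ ⟨m l, ?_, rfl⟩
    rw [hs, Finset.mem_coe]
    exact Finset.mem_image_of_mem m (Finset.mem_range.2 hli)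

end Crest.Agent.R108
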